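import Vale.Agent.P159.T1.H376.Osc

/-!
The rows OSC and SUP of D.UP (P159).
-/

open Finset

namespace Vale.Agent.P159.T1.H376

open Vale.Agent.P159.T1.D Vale.Agent.P159.T1.H565

/-- direction of a bond -/
def ud (d : Bool) : Z2 := if d then (0, 1) else (1, 0)

theorem isU_ud (d : Bool) : IsU (ud d) := by cases d <;> simp [ud, IsU]

theorem gs_eq (n0 : ℕ) (A : ℝ) (P : Z2) (d : Bool) :
    gs (fun P => clp n0 A (tau P)) (P, d) = psi n0 A (P + ud d) - psi n0 A P := by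
  obtain ⟨i, j⟩ := P
  cases d <;> simp [gs, bt, bs, ud, psi]

theorem kf_eq (q : ℕ) (c₂ c₁ : ℝ) (e : Bnd) [Decidable (pc q e)] :
    kf q c₂ c₁ e = if pc q e then c₂ else c₁ := by
  unfold kf
  by_cases h : pc q e
  · rw [if_pos h]
    exact if_pos h
  · rw [if_neg h]
    exact if_neg h

theorem kf_abs (q : ℕ) (c₂ c₁ : ℝ) (e : Bnd) : |kf q c₂ c₁ e| ≤ |c₂| + |c₁| := by
  unfold kf
  split_ifs
  · linarith [abs_nonneg c₁]
  · linarith [abs_nonneg c₂]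

theorem kf_sub (q : ℕ) (c₂ c₁ : ℝ) {e e' : Bnd} (h : pc q e' ↔ pc q e) :
    kf q c₂ c₁ e' = kf q c₂ c₁ e := by
  classical
  rw [kf_eq, kf_eq]
  by_cases hp : pc q e
  · rw [if_pos hp, if_pos (h.2 hp)]
  · rw [if_neg hp, if_neg fun h' => hp (h.1 h')]

open Classical in
theorem K_shift {q : ℕ} (c₂ c₁ : ℝ) {n0 : ℕ} (hn : 8 ≤ n0) {A : ℝ} (hA : 0 < A) {v : Z2}
    (hv : IsU v) (P : Z2) (d : Bool) :
    (Kf q c₂ c₁ (clp n0 A) (sh v (P, d)) - Kf q c₂ c₁ (clp n0 A) (P, d)) ^ 2 ≤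
      2 * (|c₂| + |c₁|) ^ 2 *
        ((100 + 32 * (1 + ((n0 : ℝ) + 3) ^ 2) ^ 2) *
            (1 / ((1 + (P.1 : ℝ) ^ 2) * (1 + (P.2 : ℝ) ^ 2))) +
          32 * (if |nr P - A| ≤ 3 then 1 / (1 + R2 P) else 0)) +
      32 * (|c₂| + |c₁|) ^ 2 * (if Chg q v d P then 1 / (1 + R2 P) else 0) := by
  have e1 : sh v (P, d) = (P + v, d) := rfl
  have hdd := dd_le hn hA (isU_ud d) hv P
  have hD := D_sq hn A (isU_ud d) P
  unfold Kf
  rw [gs_eq, e1, gs_eq]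
  set k' := kf q c₂ c₁ (P + v, d) with hk'
  set k := kf q c₂ c₁ (P, d) with hk
  have a1 : |k'| ≤ |c₂| + |c₁| := kf_abs _ _ _ _
  have a2 : |k| ≤ |c₂| + |c₁| := kf_abs _ _ _ _
  set M := |c₂| + |c₁| with hM
  have hM0 : 0 ≤ M := by positivity
  have b1 : k' ^ 2 ≤ M ^ 2 := by rw [← sq_abs]; exact pow_le_pow_left₀ (abs_nonneg _) a1 2
  set D := psi n0 A (P + ud d) - psi n0 A P with hDdef
  have e2 : k' * (psi n0 A (P + v + ud d) - psi n0 A (P + v)) - k * D =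
      k' * dd n0 A (ud d) v P + (k' - k) * D := by
    unfold dd
    rw [← hDdef]
    ring
  rw [e2]
  have e3 : (k' * dd n0 A (ud d) v P + (k' - k) * D) ^ 2 ≤
      2 * (k' ^ 2 * dd n0 A (ud d) v P ^ 2) + 2 * ((k' - k) ^ 2 * D ^ 2) := by
    nlinarith [sq_nonneg (k' * dd n0 A (ud d) v P - (k' - k) * D)]
  have e4 : k' ^ 2 * dd n0 A (ud d) v P ^ 2 ≤ M ^ 2 *
      ((100 + 32 * (1 + ((n0 : ℝ) + 3) ^ 2) ^ 2) *
            (1 / ((1 + (P.1 : ℝ) ^ 2) * (1 + (P.2 : ℝ) ^ 2))) +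
          32 * (if |nr P - A| ≤ 3 then 1 / (1 + R2 P) else 0)) := by
    refine mul_le_mul b1 (hdd.trans (le_of_eq ?_)) (sq_nonneg _) (sq_nonneg _)
    rw [mul_one_div]
  have hR := R2_nonneg P
  have e5 : (k' - k) ^ 2 * D ^ 2 ≤ 16 * M ^ 2 * (if Chg q v d P then 1 / (1 + R2 P) else 0) := by
    by_cases hc : Chg q v d P
    · rw [if_pos hc]
      have c1 : (k' - k) ^ 2 ≤ 4 * M ^ 2 := by
        have : |k' - k| ≤ 2 * M := by
          refine (abs_sub k' k).trans ?_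
          linarith
        have := pow_le_pow_left₀ (abs_nonneg _) this 2
        rw [sq_abs] at this
        nlinarith
      calc (k' - k) ^ 2 * D ^ 2 ≤ 4 * M ^ 2 * (4 / (1 + R2 P)) :=
            mul_le_mul c1 hD (sq_nonneg _) (by positivity)
        _ = 16 * M ^ 2 * (1 / (1 + R2 P)) := by ring
    · have h0 : k' = k := by
        unfold Chg at hc
        rw [not_not] at hc
        exact kf_sub q c₂ c₁ hc
      rw [h0, if_neg hc]
      simp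
  linarith

/-- sums over bonds -/
theorem sum_bnd_le {F : Bnd → ℝ} {F' : Bool → Z2 → ℝ} {C : ℝ}
    (h : ∀ P d, F (P, d) ≤ F' d P) (h0 : ∀ e, 0 ≤ F e) (hF : ∀ d T, ∑ P ∈ T, F' d P ≤ C)
    (S : Finset Bnd) : ∑ e ∈ S, F e ≤ 2 * C := by
  have hsub : S ⊆ S.image Prod.fst ×ˢ (Finset.univ : Finset Bool) := by
    intro e he
    rw [mem_product]
    exact ⟨mem_image_of_mem _ he, mem_univ _⟩
  refine (sum_le_sum_of_subset_of_nonneg hsub fun e _ _ => h0 e).trans ?_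
  rw [sum_product_right]
  rw [Fintype.sum_bool]
  have h1 := (sum_le_sum fun P (_ : P ∈ S.image Prod.fst) => h P true).trans
    (hF true (S.image Prod.fst))
  have h2 := (sum_le_sum fun P (_ : P ∈ S.image Prod.fst) => h P false).trans
    (hF false (S.image Prod.fst))
  linarith

/-- the oscillation along `u` is bounded -/
def Ok (q : ℕ) (c₂ c₁ : ℝ) (n0 : ℕ) (u : Z2) : Prop :=
  ∃ C : ℝ, ∀ r : ℕ, 1 ≤ r → ∀ S : Finset Bnd,
    ∑ e ∈ S, (Kf q c₂ c₁ (clp n0 ((r : ℝ) / 4)) (sh u e) -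
      Kf q c₂ c₁ (clp n0 ((r : ℝ) / 4)) e) ^ 2 ≤ C

theorem ok_unit {q : ℕ} (hq : 1 ≤ q) (c₂ c₁ : ℝ) {n0 : ℕ} (hn : 8 ≤ n0) {v : Z2} (hv : IsU v) :
    Ok q c₂ c₁ n0 v := by
  classical
  refine ⟨2 * (2 * (|c₂| + |c₁|) ^ 2 * ((100 + 32 * (1 + ((n0 : ℝ) + 3) ^ 2) ^ 2) * s0 ^ 2 +
    32 * (148 * s0)) + 32 * (|c₂| + |c₁|) ^ 2 * (2 * s0)), fun r hr S => ?_⟩
  have hA : (0 : ℝ) < (r : ℝ) / 4 := by
    have : (0 : ℝ) < r := by exact_mod_cast hr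
    positivity
  refine sum_bnd_le (fun P d => K_shift c₂ c₁ hn hA hv P d) (fun e => sq_nonneg _) ?_ S
  intro d T
  rw [sum_add_distrib, ← mul_sum, ← mul_sum, sum_add_distrib, ← mul_sum, ← mul_sum]
  have h1 := sum_prod_le T
  have h2 := near_sum hA T
  have h3 := chg_sum hq hv d T
  have m1 : (0 : ℝ) ≤ 100 + 32 * (1 + ((n0 : ℝ) + 3) ^ 2) ^ 2 := by positivity
  have m2 : 0 ≤ 2 * (|c₂| + |c₁|) ^ 2 := by positivity
  have m3 : 0 ≤ 32 * (|c₂| + |c₁|) ^ 2 := by positivity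
  have k1 := mul_le_mul_of_nonneg_left h1 m1
  have k2 := mul_le_mul_of_nonneg_left h2 (by norm_num : (0 : ℝ) ≤ 32)
  have k3 := mul_le_mul_of_nonneg_left h3 m3
  have k4 := mul_le_mul_of_nonneg_left (add_le_add k1 k2) m2
  exact add_le_add k4 k3

theorem ok_zero (q : ℕ) (c₂ c₁ : ℝ) (n0 : ℕ) : Ok q c₂ c₁ n0 0 := by
  refine ⟨0, fun r _ S => ?_⟩
  refine le_of_eq (sum_eq_zero fun e _ => ?_)
  have : sh 0 e = e := by unfold sh; rw [add_zero]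
  rw [this, sub_self]
  norm_num

theorem sh_add (u v : Z2) (e : Bnd) : sh (u + v) e = sh v (sh u e) := by
  unfold sh
  simp only
  rw [add_assoc]

theorem sh_inj (u : Z2) : Function.Injective (sh u) := by
  intro e e' h
  unfold sh at h
  rw [Prod.mk.injEq] at h
  exact Prod.ext (add_right_cancel h.1) h.2

theorem ok_add {q : ℕ} {c₂ c₁ : ℝ} {n0 : ℕ} {u v : Z2} (hu : Ok q c₂ c₁ n0 u)
    (hv : Ok q c₂ c₁ n0 v) : Ok q c₂ c₁ n0 (u + v) := by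
  classical
  obtain ⟨C, hC⟩ := hu
  obtain ⟨C', hC'⟩ := hv
  refine ⟨2 * C + 2 * C', fun r hr S => ?_⟩
  set K := Kf q c₂ c₁ (clp n0 ((r : ℝ) / 4)) with hK
  have h1 := hC r hr S
  have h2 := hC' r hr (S.image (sh u))
  rw [← hK] at h1 h2
  rw [sum_image (fun x _ y _ h => sh_inj u h)] at h2
  calc ∑ e ∈ S, (K (sh (u + v) e) - K e) ^ 2
      ≤ ∑ e ∈ S, (2 * (K (sh u e) - K e) ^ 2 + 2 * (K (sh v (sh u e)) - K (sh u e)) ^ 2) := by
        refine sum_le_sum fun e _ => ?_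
        rw [sh_add]
        nlinarith [sq_nonneg ((K (sh u e) - K e) - (K (sh v (sh u e)) - K (sh u e)))]
    _ = 2 * ∑ e ∈ S, (K (sh u e) - K e) ^ 2 +
          2 * ∑ e ∈ S, (K (sh v (sh u e)) - K (sh u e)) ^ 2 := by
        rw [sum_add_distrib, ← mul_sum, ← mul_sum]
    _ ≤ 2 * C + 2 * C' := by linarith

theorem ok_neg {q : ℕ} {c₂ c₁ : ℝ} {n0 : ℕ} {u : Z2} (hu : Ok q c₂ c₁ n0 u) :
    Ok q c₂ c₁ n0 (-u) := by
  classical
  obtain ⟨C, hC⟩ := hu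
  refine ⟨C, fun r hr S => ?_⟩
  set K := Kf q c₂ c₁ (clp n0 ((r : ℝ) / 4)) with hK
  have h2 := hC r hr (S.image (sh (-u)))
  rw [← hK] at h2
  rw [sum_image (fun x _ y _ h => sh_inj (-u) h)] at h2
  refine (le_of_eq ?_).trans h2
  refine sum_congr rfl fun e _ => ?_
  have : sh u (sh (-u) e) = e := by
    rw [← sh_add]
    unfold sh
    simp
  rw [this]
  ring

theorem ok_zsmul {q : ℕ} {c₂ c₁ : ℝ} {n0 : ℕ} {u : Z2} (hu : Ok q c₂ c₁ n0 u) (a : ℤ) :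
    Ok q c₂ c₁ n0 (a • u) := by
  induction a using Int.induction_on with
  | zero => rw [zero_smul]; exact ok_zero _ _ _ _
  | succ i ih => rw [add_smul, one_smul]; exact ok_add ih hu
  | pred i ih => rw [sub_smul, one_smul, sub_eq_add_neg]; exact ok_add ih (ok_neg hu)

theorem ok_all {q : ℕ} (hq : 1 ≤ q) (c₂ c₁ : ℝ) {n0 : ℕ} (hn : 8 ≤ n0) (u : Z2) :
    Ok q c₂ c₁ n0 u := by
  have h1 := ok_zsmul (ok_unit hq c₂ c₁ hn (v := (1, 0)) (Or.inl rfl)) u.1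
  have h2 := ok_zsmul (ok_unit hq c₂ c₁ hn (v := (0, 1)) (Or.inr rfl)) u.2
  have h3 := ok_add h1 h2
  have e : u.1 • ((1, 0) : Z2) + u.2 • ((0, 1) : Z2) = u := by
    ext <;> simp
  rwa [e] at h3

/-- **row OSC** -/
theorem stmtOSC : StmtOSC := by
  intro q c₂ c₁ n0 l hq hn
  choose C hC using fun u => ok_all hq c₂ c₁ hn u
  refine ⟨∑ u ∈ Finset.Icc (-(l : ℤ), -(l : ℤ)) ((l : ℤ), (l : ℤ)), C u, fun r hr S => ?_⟩
  unfold osc
  rw [sum_comm]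
  exact sum_le_sum fun u _ => hC u r hr S

/-- **row SUP** -/
theorem stmtSUP : StmtSUP := by
  intro c₂ c₁ η hη
  obtain ⟨m, hm⟩ := exists_nat_gt ((|c₂| + |c₁|) / η)
  refine ⟨m + 8, fun n0 hn q r hq hr e => ?_⟩
  have hn8 : 8 ≤ n0 := by omega
  have hnm : (m : ℝ) + 8 ≤ n0 := by exact_mod_cast hn
  have hM0 : 0 ≤ |c₂| + |c₁| := by positivity
  obtain ⟨P, d⟩ := e
  unfold Kf
  rw [gs_eq, abs_mul]
  have hk := kf_abs q c₂ c₁ (P, d)
  rcases D_abs hn8 ((r : ℝ) / 4) (isU_ud d) P with h | ⟨h1, h2⟩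
  · rw [h, abs_zero, mul_zero]
    exact hη.le
  · have hm0 : (0 : ℝ) ≤ m := by positivity
    have h3 : (m : ℝ) + 6 ≤ nr P - 1 := by linarith
    have h4 : 1 / (nr P - 1) ≤ 1 / ((m : ℝ) + 6) := one_div_le_one_div_of_le (by linarith) h3
    calc |kf q c₂ c₁ (P, d)| * |psi n0 ((r : ℝ) / 4) (P + ud d) - psi n0 ((r : ℝ) / 4) P|
        ≤ (|c₂| + |c₁|) * (1 / ((m : ℝ) + 6)) :=
          mul_le_mul hk (h2.trans h4) (abs_nonneg _) hM0
      _ ≤ η := by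
          rw [mul_one_div, div_le_iff₀ (by linarith)]
          rw [div_lt_iff₀ hη] at hm
          nlinarith

end Vale.Agent.P159.T1.H376
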