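import Vale.Agent.P159.T1.H565.UpDefs
import Mathlib.Analysis.PSeries

/-!
Counting lemmas for the oscillation of the tilt field (row OSC of D.UP).
-/

open Finset

namespace Vale.Agent.P159.T1.H376

open Vale.Agent.P159.T1.D Vale.Agent.P159.T1.H565

/-- the square of the distance to the origin -/
noncomputable def R2 (P : Z2) : ℝ := (P.1 : ℝ) ^ 2 + (P.2 : ℝ) ^ 2

theorem R2_nonneg (P : Z2) : 0 ≤ R2 P := by unfold R2; positivity

theorem ex_s : ∃ s : ℝ, 0 ≤ s ∧ ∀ T : Finset ℤ, ∑ i ∈ T, 1 / (1 + (i : ℝ) ^ 2) ≤ s := by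
  have h1 : Summable fun i : ℤ => 1 / (i : ℝ) ^ 2 := by
    have := (Real.summable_one_div_int_pow (p := 2)).2 (by norm_num)
    exact this
  have h2 : Summable fun i : ℤ => if i = 0 then (1 : ℝ) else 0 := (hasSum_ite_eq 0 1).summable
  have h : Summable fun i : ℤ => 1 / (1 + (i : ℝ) ^ 2) := by
    refine Summable.of_nonneg_of_le (fun i => by positivity) (fun i => ?_) (h1.add h2)
    by_cases hi : i = 0
    · subst hi; simp
    · have : (0 : ℝ) < (i : ℝ) ^ 2 := by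
        have : (i : ℝ) ≠ 0 := by exact_mod_cast hi
        positivity
      rw [if_neg hi, add_zero]
      exact one_div_le_one_div_of_le this (by linarith)
  exact ⟨∑' i : ℤ, 1 / (1 + (i : ℝ) ^ 2), tsum_nonneg fun i => by positivity,
    fun T => h.sum_le_tsum T fun i _ => by positivity⟩

/-- the bound of the one dimensional sums -/
noncomputable def s0 : ℝ := ex_s.choose

theorem s0_nonneg : 0 ≤ s0 := ex_s.choose_spec.1

theorem sum_le_s0 (T : Finset ℤ) : ∑ i ∈ T, 1 / (1 + (i : ℝ) ^ 2) ≤ s0 := ex_s.choose_spec.2 T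

theorem sum_prod_le (T : Finset Z2) :
    ∑ P ∈ T, 1 / ((1 + (P.1 : ℝ) ^ 2) * (1 + (P.2 : ℝ) ^ 2)) ≤ s0 ^ 2 := by
  have hsub : T ⊆ T.image Prod.fst ×ˢ T.image Prod.snd := by
    intro P hP
    rw [mem_product]
    exact ⟨mem_image_of_mem _ hP, mem_image_of_mem _ hP⟩
  calc ∑ P ∈ T, 1 / ((1 + (P.1 : ℝ) ^ 2) * (1 + (P.2 : ℝ) ^ 2))
      ≤ ∑ P ∈ T.image Prod.fst ×ˢ T.image Prod.snd,
          1 / ((1 + (P.1 : ℝ) ^ 2) * (1 + (P.2 : ℝ) ^ 2)) :=
        sum_le_sum_of_subset_of_nonneg hsub fun P _ _ => by positivity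
    _ = (∑ i ∈ T.image Prod.fst, 1 / (1 + (i : ℝ) ^ 2)) *
          ∑ j ∈ T.image Prod.snd, 1 / (1 + (j : ℝ) ^ 2) := by
        rw [sum_mul_sum, sum_product]
        refine sum_congr rfl fun i _ => sum_congr rfl fun j _ => ?_
        simp only
        rw [one_div_mul_one_div]
    _ ≤ s0 * s0 := mul_le_mul (sum_le_s0 _) (sum_le_s0 _)
        (sum_nonneg fun i _ => by positivity) s0_nonneg
    _ = s0 ^ 2 := by ring

/-- a set with at most `k` points on every line `π = const` -/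
theorem sum_line_le (π : Z2 → ℤ) (hw : ∀ P, ((π P : ℤ) : ℝ) ^ 2 ≤ R2 P) (G : Z2 → Prop)
    [DecidablePred G] (k : ℕ)
    (hG : ∀ (j : ℤ) (T : Finset Z2), (∀ P ∈ T, G P ∧ π P = j) → T.card ≤ k) (T : Finset Z2) :
    ∑ P ∈ T, (if G P then 1 / (1 + R2 P) else 0) ≤ k * s0 := by
  rw [← sum_filter]
  calc ∑ P ∈ T.filter G, 1 / (1 + R2 P)
      ≤ ∑ P ∈ T.filter G, 1 / (1 + ((π P : ℤ) : ℝ) ^ 2) := by
        refine sum_le_sum fun P _ => one_div_le_one_div_of_le (by positivity) ?_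
        linarith [hw P]
    _ = ∑ j ∈ (T.filter G).image π, ((T.filter G).filter fun P => π P = j).card •
          (1 / (1 + (j : ℝ) ^ 2)) := sum_comp (fun j : ℤ => 1 / (1 + (j : ℝ) ^ 2)) π
    _ ≤ ∑ j ∈ (T.filter G).image π, (k : ℝ) * (1 / (1 + (j : ℝ) ^ 2)) := by
        refine sum_le_sum fun j _ => ?_
        rw [nsmul_eq_mul]
        refine mul_le_mul_of_nonneg_right ?_ (by positivity)
        have := hG j ((T.filter G).filter fun P => π P = j) (by
          intro P hP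
          rw [mem_filter, mem_filter] at hP
          exact ⟨hP.1.2, hP.2⟩)
        exact_mod_cast this
    _ = k * ∑ j ∈ (T.filter G).image π, 1 / (1 + (j : ℝ) ^ 2) := by rw [mul_sum]
    _ ≤ k * s0 := mul_le_mul_of_nonneg_left (sum_le_s0 _) (by positivity)

/-- at most one point on every line -/
theorem card_le_one_of (T : Finset Z2) (h : ∀ P ∈ T, ∀ Q ∈ T, P = Q) : T.card ≤ 1 :=
  Finset.card_le_one.2 h

/-- the distance to the origin -/
noncomputable def nr (P : Z2) : ℝ := Real.sqrt ((P.1 : ℝ) ^ 2 + (P.2 : ℝ) ^ 2)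

theorem nr_nonneg (P : Z2) : 0 ≤ nr P := Real.sqrt_nonneg _

theorem nr_sq (P : Z2) : nr P ^ 2 = R2 P := Real.sq_sqrt (by positivity)

theorem tau_eq (P : Z2) : tau P = Real.log (nr P) := rfl

theorem tau_eq' (P : Z2) : tau P = Real.log (R2 P) / 2 := by
  unfold tau
  rw [Real.log_sqrt (by positivity)]
  rfl

theorem nr_eq (P : Z2) : nr P = ‖((P.1 : ℝ) : ℂ) + ((P.2 : ℝ) : ℂ) * Complex.I‖ :=
  (Complex.norm_add_mul_I _ _).symm

theorem nr_add (P u : Z2) : |nr (P + u) - nr P| ≤ nr u := by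
  rw [nr_eq, nr_eq, nr_eq]
  refine (abs_norm_sub_norm_le _ _).trans (le_of_eq ?_)
  congr 1
  simp only [Prod.fst_add, Prod.snd_add]
  push_cast
  ring

theorem nr_e1 : nr (1, 0) = 1 := by simp [nr]

theorem nr_e2 : nr (0, 1) = 1 := by simp [nr]

/-- few points of a line in the octants `|j| ≤ |i|` at distance about `A` -/
theorem near_pair {A : ℝ} (hA : 0 < A) {x x' y : ℝ} (hx : 0 ≤ x) (hy : y ^ 2 ≤ x ^ 2)
    (h1 : |Real.sqrt (x ^ 2 + y ^ 2) - A| ≤ 3) (h2 : |Real.sqrt (x' ^ 2 + y ^ 2) - A| ≤ 3)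
    (hxx : x ≤ x') : x' - x ≤ 18 := by
  by_contra hcon
  push Not at hcon
  obtain ⟨h1a, h1b⟩ := abs_le.1 h1
  obtain ⟨h2a, h2b⟩ := abs_le.1 h2
  have s1 := Real.sq_sqrt (show (0 : ℝ) ≤ x ^ 2 + y ^ 2 by positivity)
  have s2 := Real.sq_sqrt (show (0 : ℝ) ≤ x' ^ 2 + y ^ 2 by positivity)
  have n1 := Real.sqrt_nonneg (x ^ 2 + y ^ 2)
  have n2 := Real.sqrt_nonneg (x' ^ 2 + y ^ 2)
  set a := Real.sqrt (x ^ 2 + y ^ 2) with ha
  set a' := Real.sqrt (x' ^ 2 + y ^ 2) with ha'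
  rcases le_or_gt A 3 with hA3 | hA3
  · have : a' ≤ 6 := by linarith
    have : x' ^ 2 ≤ 36 := by nlinarith [sq_nonneg y]
    nlinarith
  · have e1 : (x' - x) * (x' + x) = (a' - a) * (a' + a) := by ring_nf; nlinarith [s1, s2]
    have e2 : (a' - a) * (a' + a) ≤ 12 * A := by
      have h6 : a' - a ≤ 6 := by linarith
      rcases le_or_gt (a' - a) 0 with h0 | h0
      · have : (a' - a) * (a' + a) ≤ 0 := mul_nonpos_of_nonpos_of_nonneg h0 (by linarith)
        linarith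
      · nlinarith
    have e3 : 0.7 * (A - 3) ≤ x := by
      have : a ^ 2 ≤ 2 * x ^ 2 := by linarith
      have : (A - 3) ^ 2 ≤ 2 * x ^ 2 := by nlinarith
      by_contra hlt
      push Not at hlt
      nlinarith
    nlinarith

end Vale.Agent.P159.T1.H376
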