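import Vale.Agent.P159.T1.H376.Cnt

/-!
First and second differences of the stream function `clp n0 A (tau P)`.
-/

open Finset

namespace Vale.Agent.P159.T1.H376

open Vale.Agent.P159.T1.D Vale.Agent.P159.T1.H565

theorem abs_log_sub_le {a b m : ℝ} (hm : 0 < m) (ha : m ≤ a) (hb : m ≤ b) :
    |Real.log a - Real.log b| ≤ |a - b| / m := by
  have ha0 : 0 < a := hm.trans_le ha
  have hb0 : 0 < b := hm.trans_le hb
  have key : ∀ x y : ℝ, 0 < x → m ≤ y → Real.log x - Real.log y ≤ |x - y| / m := by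
    intro x y hx hy
    have hy0 : 0 < y := hm.trans_le hy
    rw [← Real.log_div hx.ne' hy0.ne']
    have h1 := Real.log_le_sub_one_of_pos (div_pos hx hy0)
    have h2 : x / y - 1 = (x - y) / y := by field_simp
    rw [h2] at h1
    have h3 : (x - y) / y ≤ |x - y| / y := div_le_div_of_nonneg_right (le_abs_self _) hy0.le
    have h4 : |x - y| / y ≤ |x - y| / m := div_le_div_of_nonneg_left (abs_nonneg _) hm hy
    linarith
  rw [abs_le]
  constructor
  · have := key b a hb0 ha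
    rw [abs_sub_comm] at this
    linarith
  · exact key a b ha0 hb

theorem clp_lip (a A s t : ℝ) : |clp a A s - clp a A t| ≤ |s - t| := by
  unfold clp
  have h1 := abs_max_sub_max_le_abs (min s (Real.log A)) (min t (Real.log A)) (Real.log a)
  have h2 := abs_min_sub_min_le_max s (Real.log A) t (Real.log A)
  rw [max_comm (Real.log a), max_comm (Real.log a)]
  refine h1.trans (h2.trans ?_)
  rw [sub_self, abs_zero, max_eq_left (abs_nonneg _)]

theorem clp_low {a A t : ℝ} (h : t ≤ Real.log a) : clp a A t = Real.log a := by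
  unfold clp
  exact max_eq_left ((min_le_left _ _).trans h)

theorem clp_high {a A t : ℝ} (h : Real.log A ≤ t) :
    clp a A t = max (Real.log a) (Real.log A) := by
  unfold clp
  rw [min_eq_right h]

theorem clp_mid {a A t : ℝ} (h1 : Real.log a ≤ t) (h2 : t ≤ Real.log A) : clp a A t = t := by
  unfold clp
  rw [min_eq_left h2, max_eq_right h1]

/-- the stream function -/
noncomputable def psi (n0 : ℕ) (A : ℝ) (P : Z2) : ℝ := clp n0 A (tau P)

theorem psi_low {n0 : ℕ} (hn : 8 ≤ n0) {A : ℝ} {P : Z2} (h : nr P ≤ n0) :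
    psi n0 A P = Real.log n0 := by
  have hn' : (8 : ℝ) ≤ n0 := by exact_mod_cast hn
  refine clp_low ?_
  rw [tau_eq]
  rcases (nr_nonneg P).eq_or_lt with h0 | h0
  · rw [← h0, Real.log_zero]
    exact Real.log_nonneg (by linarith)
  · exact Real.log_le_log h0 h

/-- the unit vectors -/
def IsU (u : Z2) : Prop := u = (1, 0) ∨ u = (0, 1)

theorem IsU.nr {u : Z2} (hu : IsU u) : nr u = 1 := by
  rcases hu with rfl | rfl
  · exact nr_e1
  · exact nr_e2

theorem nr_step {u : Z2} (hu : IsU u) (P : Z2) : nr P - 1 ≤ nr (P + u) ∧ nr (P + u) ≤ nr P + 1 := by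
  have h := nr_add P u
  rw [hu.nr, abs_le] at h
  constructor <;> linarith [h.1, h.2]

theorem D_abs {n0 : ℕ} (hn : 8 ≤ n0) (A : ℝ) {u : Z2} (hu : IsU u) (P : Z2) :
    psi n0 A (P + u) - psi n0 A P = 0 ∨
      ((n0 : ℝ) - 1 ≤ nr P ∧ |psi n0 A (P + u) - psi n0 A P| ≤ 1 / (nr P - 1)) := by
  have hn' : (8 : ℝ) ≤ n0 := by exact_mod_cast hn
  obtain ⟨h1, h2⟩ := nr_step hu P
  by_cases h : nr P ≤ n0 ∧ nr (P + u) ≤ n0
  · left
    rw [psi_low hn h.1, psi_low hn h.2, sub_self]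
  · right
    have h3 : (n0 : ℝ) - 1 ≤ nr P := by
      by_contra hc
      push Not at hc
      exact h ⟨by linarith, by linarith⟩
    refine ⟨h3, ?_⟩
    have hm : 0 < nr P - 1 := by linarith
    refine (clp_lip _ _ _ _).trans ?_
    rw [tau_eq, tau_eq]
    refine (abs_log_sub_le hm h1 (by linarith)).trans ?_
    refine div_le_div_of_nonneg_right ?_ hm.le
    rw [abs_le]
    constructor <;> linarith

theorem D_sq {n0 : ℕ} (hn : 8 ≤ n0) (A : ℝ) {u : Z2} (hu : IsU u) (P : Z2) :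
    (psi n0 A (P + u) - psi n0 A P) ^ 2 ≤ 4 / (1 + R2 P) := by
  have hn' : (8 : ℝ) ≤ n0 := by exact_mod_cast hn
  have hR := R2_nonneg P
  rcases D_abs hn A hu P with h | ⟨h1, h2⟩
  · rw [h]
    have : 0 ≤ 4 / (1 + R2 P) := by positivity
    simpa using this
  · have hm : 0 < nr P - 1 := by linarith
    have h3 : (psi n0 A (P + u) - psi n0 A P) ^ 2 ≤ (1 / (nr P - 1)) ^ 2 := by
      rw [← sq_abs]
      exact pow_le_pow_left₀ (abs_nonneg _) h2 2
    refine h3.trans ?_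
    rw [div_pow, one_pow, div_le_div_iff₀ (by positivity) (by positivity), ← nr_sq]
    nlinarith

theorem R2_shift {u : Z2} (hu : IsU u) (P : Z2) : 1 + R2 P ≤ 3 * (1 + R2 (P + u)) := by
  obtain ⟨h1, h2⟩ := nr_step hu P
  rw [← nr_sq, ← nr_sq]
  have n1 := nr_nonneg P
  have n2 := nr_nonneg (P + u)
  nlinarith [sq_nonneg (nr (P + u) - 1)]

/-- the second difference -/
noncomputable def dd (n0 : ℕ) (A : ℝ) (u v P : Z2) : ℝ :=
  (psi n0 A (P + v + u) - psi n0 A (P + v)) - (psi n0 A (P + u) - psi n0 A P)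

theorem dd_crude {n0 : ℕ} (hn : 8 ≤ n0) (A : ℝ) {u v : Z2} (hu : IsU u) (hv : IsU v) (P : Z2) :
    dd n0 A u v P ^ 2 ≤ 32 / (1 + R2 P) := by
  have h1 := D_sq hn A hu (P + v)
  have h2 := D_sq hn A hu P
  have h3 := R2_shift hv P
  have hR := R2_nonneg P
  have hR' := R2_nonneg (P + v)
  have h4 : 4 / (1 + R2 (P + v)) ≤ 12 / (1 + R2 P) := by
    rw [div_le_div_iff₀ (by positivity) (by positivity)]
    linarith
  have h5 : dd n0 A u v P ^ 2 ≤ 2 * (psi n0 A (P + v + u) - psi n0 A (P + v)) ^ 2 +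
      2 * (psi n0 A (P + u) - psi n0 A P) ^ 2 := by
    unfold dd
    nlinarith [sq_nonneg ((psi n0 A (P + v + u) - psi n0 A (P + v)) +
      (psi n0 A (P + u) - psi n0 A P))]
  have h6 : 32 / (1 + R2 P) = 2 * (12 / (1 + R2 P)) + 2 * (4 / (1 + R2 P)) := by ring
  rw [h6]
  linarith

theorem N1 (i j : ℝ) (h : 49 ≤ i ^ 2 + j ^ 2) :
    |((i + 1 + 1) ^ 2 + j ^ 2) * (i ^ 2 + j ^ 2) -
      ((i + 1) ^ 2 + j ^ 2) * ((i + 1) ^ 2 + j ^ 2)| ≤ 5 * (i ^ 2 + j ^ 2) := by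
  have e : ((i + 1 + 1) ^ 2 + j ^ 2) * (i ^ 2 + j ^ 2) -
      ((i + 1) ^ 2 + j ^ 2) * ((i + 1) ^ 2 + j ^ 2) = 2 * j ^ 2 + 1 - 2 * (i + 1) ^ 2 := by ring
  rw [e, abs_le]
  constructor
  · nlinarith [sq_nonneg (i - 2), sq_nonneg j]
  · nlinarith [sq_nonneg (i + 1), sq_nonneg i, sq_nonneg j]

theorem N2 (i j : ℝ) (h : 49 ≤ i ^ 2 + j ^ 2) :
    |((i + 1) ^ 2 + (j + 1) ^ 2) * (i ^ 2 + j ^ 2) -
      ((i + 1) ^ 2 + j ^ 2) * (i ^ 2 + (j + 1) ^ 2)| ≤ 5 * (i ^ 2 + j ^ 2) := by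
  have e : ((i + 1) ^ 2 + (j + 1) ^ 2) * (i ^ 2 + j ^ 2) -
      ((i + 1) ^ 2 + j ^ 2) * (i ^ 2 + (j + 1) ^ 2) = -((2 * i + 1) * (2 * j + 1)) := by ring
  rw [e, abs_neg, abs_le]
  constructor
  · nlinarith [sq_nonneg (i + j + 1), sq_nonneg (i - 1), sq_nonneg (j - 1), sq_nonneg (i + 1),
      sq_nonneg (j + 1)]
  · nlinarith [sq_nonneg (i - j), sq_nonneg (i - 1), sq_nonneg (j - 1)]

/-- the second difference of the logarithm -/
theorem tau_dd {u v : Z2} (hu : IsU u) (hv : IsU v) {P : Z2} (hP : 7 ≤ nr P) :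
    |(tau (P + v + u) - tau (P + v)) - (tau (P + u) - tau P)| ≤ 10 / R2 P := by
  have hRP : (49 : ℝ) ≤ R2 P := by rw [← nr_sq]; nlinarith
  have hRpos : 0 < R2 P := by linarith
  have low1 : ∀ {w : Z2}, IsU w → ∀ Q : Z2, 6 ≤ nr Q → 25 / 36 * R2 Q ≤ R2 (Q + w) := by
    intro w hw Q hQ
    obtain ⟨h1, h2⟩ := nr_step hw Q
    rw [← nr_sq, ← nr_sq]
    nlinarith
  have hv6 : 6 ≤ nr (P + v) := by linarith [(nr_step hv P).1]
  have l1 : 25 / 36 * R2 P ≤ R2 (P + v) := low1 hv P (by linarith)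
  have l2 : 25 / 36 * R2 P ≤ R2 (P + u) := low1 hu P (by linarith)
  have l3 : 25 / 36 * R2 (P + v) ≤ R2 (P + v + u) := low1 hu (P + v) hv6
  have l3' : 625 / 1296 * R2 P ≤ R2 (P + v + u) := by linarith
  have p1 : 0 < R2 (P + v) := by linarith
  have p2 : 0 < R2 (P + u) := by linarith
  have p3 : 0 < R2 (P + v + u) := by linarith
  have e : (tau (P + v + u) - tau (P + v)) - (tau (P + u) - tau P) =
      (Real.log (R2 (P + v + u) * R2 P) - Real.log (R2 (P + v) * R2 (P + u))) / 2 := by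
    rw [tau_eq', tau_eq', tau_eq', tau_eq', Real.log_mul p3.ne' hRpos.ne',
      Real.log_mul p1.ne' p2.ne']
    ring
  rw [e, abs_div, abs_two]
  have hm : 0 < 1 / 4 * R2 P ^ 2 := by positivity
  have ma : 1 / 4 * R2 P ^ 2 ≤ R2 (P + v + u) * R2 P := by nlinarith
  have mb : 1 / 4 * R2 P ^ 2 ≤ R2 (P + v) * R2 (P + u) := by
    have := mul_le_mul l1 l2 (by positivity) p1.le
    nlinarith
  have hN : |R2 (P + v + u) * R2 P - R2 (P + v) * R2 (P + u)| ≤ 5 * R2 P := by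
    obtain ⟨i, j⟩ := P
    rcases hu with rfl | rfl <;> rcases hv with rfl | rfl <;>
      simp only [R2, Prod.mk_add_mk, add_zero, Int.cast_add, Int.cast_one] at hRP ⊢
    · exact N1 _ _ hRP
    · rw [mul_comm ((i : ℝ) ^ 2 + ((j : ℝ) + 1) ^ 2)]
      exact N2 _ _ hRP
    · exact N2 _ _ hRP
    · have := N1 (j : ℝ) (i : ℝ) (by linarith)
      rw [add_comm ((i : ℝ) ^ 2) (((j : ℝ) + 1 + 1) ^ 2), add_comm ((i : ℝ) ^ 2) ((j : ℝ) ^ 2),
        add_comm ((i : ℝ) ^ 2) (((j : ℝ) + 1) ^ 2)]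
      exact this
  have := abs_log_sub_le hm ma mb
  have h2 : |R2 (P + v + u) * R2 P - R2 (P + v) * R2 (P + u)| / (1 / 4 * R2 P ^ 2) ≤
      20 / R2 P := by
    rw [div_le_div_iff₀ hm hRpos]
    nlinarith
  have h3 : 10 / R2 P = 20 / R2 P / 2 := by ring
  rw [h3]
  exact div_le_div_of_nonneg_right (this.trans h2) (by norm_num)

/-- the bound of the second difference -/
theorem dd_le {n0 : ℕ} (hn : 8 ≤ n0) {A : ℝ} (hA : 0 < A) {u v : Z2} (hu : IsU u) (hv : IsU v)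
    (P : Z2) :
    dd n0 A u v P ^ 2 ≤
      (100 + 32 * (1 + ((n0 : ℝ) + 3) ^ 2) ^ 2) / ((1 + (P.1 : ℝ) ^ 2) * (1 + (P.2 : ℝ) ^ 2)) +
        32 * (if |nr P - A| ≤ 3 then 1 / (1 + R2 P) else 0) := by
  have hn' : (8 : ℝ) ≤ n0 := by exact_mod_cast hn
  have hR := R2_nonneg P
  have hx : 0 < (1 + (P.1 : ℝ) ^ 2) * (1 + (P.2 : ℝ) ^ 2) := by positivity
  have hcr := dd_crude hn A hu hv P
  by_cases hnear : |nr P - A| ≤ 3
  · rw [if_pos hnear]
    have h1 : 0 ≤ (100 + 32 * (1 + ((n0 : ℝ) + 3) ^ 2) ^ 2) /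
        ((1 + (P.1 : ℝ) ^ 2) * (1 + (P.2 : ℝ) ^ 2)) := by positivity
    have h2 : 32 / (1 + R2 P) = 32 * (1 / (1 + R2 P)) := by ring
    linarith
  rw [if_neg hnear, mul_zero, add_zero]
  by_cases hin : nr P ≤ n0 + 3
  · have hR1 : R2 P ≤ ((n0 : ℝ) + 3) ^ 2 := by
      rw [← nr_sq]
      exact pow_le_pow_left₀ (nr_nonneg P) hin 2
    have h1 : (P.1 : ℝ) ^ 2 ≤ ((n0 : ℝ) + 3) ^ 2 := by
      have : (P.1 : ℝ) ^ 2 ≤ R2 P := by unfold R2; nlinarith [sq_nonneg (P.2 : ℝ)]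
      linarith
    have h2 : (P.2 : ℝ) ^ 2 ≤ ((n0 : ℝ) + 3) ^ 2 := by
      have : (P.2 : ℝ) ^ 2 ≤ R2 P := by unfold R2; nlinarith [sq_nonneg (P.1 : ℝ)]
      linarith
    have h3 : (1 + (P.1 : ℝ) ^ 2) * (1 + (P.2 : ℝ) ^ 2) ≤ (1 + ((n0 : ℝ) + 3) ^ 2) ^ 2 := by
      rw [sq (1 + ((n0 : ℝ) + 3) ^ 2)]
      exact mul_le_mul (by linarith) (by linarith) (by positivity) (by positivity)
    have h4 : 32 / (1 + R2 P) ≤ 32 := by
      rw [div_le_iff₀ (by positivity)]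
      nlinarith
    refine (hcr.trans h4).trans ?_
    rw [le_div_iff₀ hx]
    nlinarith
  push Not at hin hnear
  obtain ⟨v1, v2⟩ := nr_step hv P
  obtain ⟨u1, u2⟩ := nr_step hu P
  obtain ⟨w1, w2⟩ := nr_step hu (P + v)
  rcases lt_abs.1 hnear with hfar | hmid
  · -- outside of the annulus
    have hi : ∀ Q : Z2, A ≤ nr Q → psi n0 A Q = max (Real.log n0) (Real.log A) := by
      intro Q hQ
      refine clp_high ?_
      rw [tau_eq]
      exact Real.log_le_log hA hQ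
    have h0 : dd n0 A u v P = 0 := by
      unfold dd
      rw [hi P (by linarith), hi (P + u) (by linarith), hi (P + v) (by linarith),
        hi (P + v + u) (by linarith)]
      ring
    rw [h0, zero_pow two_ne_zero]
    positivity
  · -- inside
    have hi : ∀ Q : Z2, (n0 : ℝ) ≤ nr Q → nr Q ≤ A → psi n0 A Q = tau Q := by
      intro Q h1 h2
      refine clp_mid ?_ ?_
      · rw [tau_eq]
        exact Real.log_le_log (by linarith) h1
      · rw [tau_eq]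
        exact Real.log_le_log (by linarith) h2
    have h0 : dd n0 A u v P = (tau (P + v + u) - tau (P + v)) - (tau (P + u) - tau P) := by
      unfold dd
      rw [hi P (by linarith) (by linarith), hi (P + u) (by linarith) (by linarith),
        hi (P + v) (by linarith) (by linarith), hi (P + v + u) (by linarith) (by linarith)]
    have hP7 : 7 ≤ nr P := by linarith
    have h1 := tau_dd hu hv hP7
    have hRP : (49 : ℝ) ≤ R2 P := by rw [← nr_sq]; nlinarith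
    have h2 : dd n0 A u v P ^ 2 ≤ (10 / R2 P) ^ 2 := by
      rw [h0, ← sq_abs]
      exact pow_le_pow_left₀ (abs_nonneg _) h1 2
    refine h2.trans ?_
    rw [div_pow, div_le_div_iff₀ (by positivity) hx]
    have h3 : (1 + (P.1 : ℝ) ^ 2) * (1 + (P.2 : ℝ) ^ 2) ≤ R2 P ^ 2 := by
      have : R2 P = (P.1 : ℝ) ^ 2 + (P.2 : ℝ) ^ 2 := rfl
      rw [this] at hRP ⊢
      nlinarith [sq_nonneg ((P.1 : ℝ) ^ 2 - (P.2 : ℝ) ^ 2), sq_nonneg (P.1 : ℝ),
        sq_nonneg (P.2 : ℝ)]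
    have h4 : (100 : ℝ) ≤ 100 + 32 * (1 + ((n0 : ℝ) + 3) ^ 2) ^ 2 := by
      have : 0 ≤ 32 * (1 + ((n0 : ℝ) + 3) ^ 2) ^ 2 := by positivity
      linarith
    have h5 : (0 : ℝ) ≤ R2 P ^ 2 := by positivity
    nlinarith [mul_le_mul_of_nonneg_right h4 h5]

end Vale.Agent.P159.T1.H376
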