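import Vale.Agent.P159.T1.H376.Geo

/-!
The rows OSC and SUP of D.UP (P159): oscillation and smallness of the tilt field.
-/

open Finset

namespace Vale.Agent.P159.T1.H376

open Vale.Agent.P159.T1.D Vale.Agent.P159.T1.H565

/-! ### points at distance about `A` -/

theorem near2 {A : ℝ} (hA : 0 < A) {x x' y : ℝ} (hs : (0 ≤ x ∧ 0 ≤ x') ∨ (x < 0 ∧ x' < 0))
    (hy : y ^ 2 ≤ x ^ 2) (hy' : y ^ 2 ≤ x' ^ 2)
    (h1 : |Real.sqrt (x ^ 2 + y ^ 2) - A| ≤ 3) (h2 : |Real.sqrt (x' ^ 2 + y ^ 2) - A| ≤ 3) :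
    |x - x'| ≤ 18 := by
  rcases hs with ⟨p, p'⟩ | ⟨p, p'⟩
  · rcases le_total x x' with h | h
    · have := near_pair hA p hy h1 h2 h
      rw [abs_sub_comm, abs_of_nonneg (by linarith)]
      exact this
    · have := near_pair hA p' hy' h2 h1 h
      rw [abs_of_nonneg (by linarith)]
      exact this
  · have h1' : |Real.sqrt ((-x) ^ 2 + y ^ 2) - A| ≤ 3 := by rwa [neg_sq]
    have h2' : |Real.sqrt ((-x') ^ 2 + y ^ 2) - A| ≤ 3 := by rwa [neg_sq]
    rcases le_total x x' with h | h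
    · have := near_pair hA (by linarith : 0 ≤ -x') (by rwa [neg_sq]) h2' h1' (by linarith)
      rw [abs_sub_comm, abs_of_nonneg (by linarith)]
      linarith
    · have := near_pair hA (by linarith : 0 ≤ -x) (by rwa [neg_sq]) h1' h2' (by linarith)
      rw [abs_of_nonneg (by linarith)]
      linarith

theorem near_card (π ρ : Z2 → ℤ)
    (hnr : ∀ P, nr P = Real.sqrt (((ρ P : ℤ) : ℝ) ^ 2 + ((π P : ℤ) : ℝ) ^ 2))
    (hinj : ∀ P Q, π P = π Q → ρ P = ρ Q → P = Q) {A : ℝ} (hA : 0 < A) (j : ℤ) (T : Finset Z2)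
    (hT : ∀ P ∈ T, (|nr P - A| ≤ 3 ∧ ((π P : ℤ) : ℝ) ^ 2 ≤ ((ρ P : ℤ) : ℝ) ^ 2) ∧ π P = j) :
    T.card ≤ 74 := by
  classical
  have part : ∀ T' ⊆ T, ((∀ P ∈ T', 0 ≤ ρ P) ∨ ∀ P ∈ T', ρ P < 0) → T'.card ≤ 37 := by
    intro T' hT' hsg
    rcases T'.eq_empty_or_nonempty with rfl | ⟨P0, hP0⟩
    · simp
    have hc : T'.card = (T'.image ρ).card := by
      refine (card_image_of_injOn ?_).symm
      intro P hP Q hQ h
      exact hinj P Q (((hT P (hT' hP)).2).trans ((hT Q (hT' hQ)).2).symm) h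
    have hsub : T'.image ρ ⊆ Icc (ρ P0 - 18) (ρ P0 + 18) := by
      intro i hi
      rw [mem_image] at hi
      obtain ⟨P, hP, rfl⟩ := hi
      obtain ⟨⟨a1, a2⟩, a3⟩ := hT P (hT' hP)
      obtain ⟨⟨b1, b2⟩, b3⟩ := hT P0 (hT' hP0)
      rw [hnr, a3] at a1
      rw [hnr, b3] at b1
      rw [a3] at a2
      rw [b3] at b2
      have hs : ((0 : ℝ) ≤ ((ρ P : ℤ) : ℝ) ∧ (0 : ℝ) ≤ ((ρ P0 : ℤ) : ℝ)) ∨
          (((ρ P : ℤ) : ℝ) < 0 ∧ ((ρ P0 : ℤ) : ℝ) < 0) := by
        rcases hsg with h | h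
        · left
          exact ⟨by exact_mod_cast h P hP, by exact_mod_cast h P0 hP0⟩
        · right
          exact ⟨by exact_mod_cast h P hP, by exact_mod_cast h P0 hP0⟩
      have := near2 hA hs a2 b2 a1 b1
      rw [abs_le] at this
      rw [mem_Icc]
      constructor
      · have h : ((ρ P0 : ℤ) : ℝ) - 18 ≤ ρ P := by linarith [this.1]
        exact_mod_cast h
      · have h : ((ρ P : ℤ) : ℝ) ≤ ρ P0 + 18 := by linarith [this.2]
        exact_mod_cast h
    rw [hc]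
    refine (card_le_card hsub).trans (le_of_eq ?_)
    rw [Int.card_Icc]
    have : ρ P0 + 18 + 1 - (ρ P0 - 18) = 37 := by ring
    rw [this]
    rfl
  have h1 := part (T.filter fun P => 0 ≤ ρ P) (filter_subset _ _)
    (Or.inl fun P hP => (mem_filter.1 hP).2)
  have h2 := part (T.filter fun P => ¬ 0 ≤ ρ P) (filter_subset _ _)
    (Or.inr fun P hP => not_le.1 (mem_filter.1 hP).2)
  have h3 := Finset.card_filter_add_card_filter_not (s := T) (fun P => 0 ≤ ρ P)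
  omega

open Classical in
theorem near_sum {A : ℝ} (hA : 0 < A) (T : Finset Z2) :
    ∑ P ∈ T, (if |nr P - A| ≤ 3 then 1 / (1 + R2 P) else 0) ≤ 148 * s0 := by
  have h1 := sum_line_le Prod.snd (fun P => by unfold R2; nlinarith [sq_nonneg (P.1 : ℝ)])
    (fun P => |nr P - A| ≤ 3 ∧ ((P.2 : ℤ) : ℝ) ^ 2 ≤ ((P.1 : ℤ) : ℝ) ^ 2) 74
    (fun j T' hT' => near_card Prod.snd Prod.fst (fun P => rfl)
      (fun P Q h h' => Prod.ext h' h) hA j T' hT') T
  have h2 := sum_line_le Prod.fst (fun P => by unfold R2; nlinarith [sq_nonneg (P.2 : ℝ)])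
    (fun P => |nr P - A| ≤ 3 ∧ ((P.1 : ℤ) : ℝ) ^ 2 ≤ ((P.2 : ℤ) : ℝ) ^ 2) 74
    (fun j T' hT' => near_card Prod.fst Prod.snd
      (fun P => by unfold nr; rw [add_comm])
      (fun P Q h h' => Prod.ext h h') hA j T' hT') T
  have h3 : ∑ P ∈ T, (if |nr P - A| ≤ 3 then 1 / (1 + R2 P) else 0) ≤
      ∑ P ∈ T, ((if |nr P - A| ≤ 3 ∧ ((P.2 : ℤ) : ℝ) ^ 2 ≤ ((P.1 : ℤ) : ℝ) ^ 2 then
        1 / (1 + R2 P) else 0) +
        (if |nr P - A| ≤ 3 ∧ ((P.1 : ℤ) : ℝ) ^ 2 ≤ ((P.2 : ℤ) : ℝ) ^ 2 then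
        1 / (1 + R2 P) else 0)) := by
    refine sum_le_sum fun P _ => ?_
    have hp : 0 ≤ 1 / (1 + R2 P) := by have := R2_nonneg P; positivity
    by_cases h : |nr P - A| ≤ 3
    · rcases le_total (((P.2 : ℤ) : ℝ) ^ 2) (((P.1 : ℤ) : ℝ) ^ 2) with h' | h'
      · rw [if_pos h, if_pos ⟨h, h'⟩]
        have : 0 ≤ (if |nr P - A| ≤ 3 ∧ ((P.1 : ℤ) : ℝ) ^ 2 ≤ ((P.2 : ℤ) : ℝ) ^ 2 then
          1 / (1 + R2 P) else 0) := by split_ifs <;> [exact hp; exact le_rfl]
        linarith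
      · rw [if_pos h, if_pos (⟨h, h'⟩ :
          |nr P - A| ≤ 3 ∧ ((P.1 : ℤ) : ℝ) ^ 2 ≤ ((P.2 : ℤ) : ℝ) ^ 2)]
        have : 0 ≤ (if |nr P - A| ≤ 3 ∧ ((P.2 : ℤ) : ℝ) ^ 2 ≤ ((P.1 : ℤ) : ℝ) ^ 2 then
          1 / (1 + R2 P) else 0) := by split_ifs <;> [exact hp; exact le_rfl]
        linarith
    · rw [if_neg h, if_neg (fun h' => h h'.1), if_neg (fun h' => h h'.1), add_zero]
  rw [sum_add_distrib] at h3
  push_cast at h1 h2
  linarith

/-! ### the bonds where the coefficient changes -/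

/-- the bonds with the coefficient `c₂` -/
def pc (q : ℕ) (e : Bnd) : Prop :=
  (rt e ∈ cone q ∧ lf e ∈ cone q) ∨ (rt e ∈ cone q ∧ e.2 = false ∧ e.1.2 = -1)

/-- the row number -/
def mm (d : Bool) (j : ℤ) : ℤ := if d then -1 - j else -j

theorem pc_iff {q : ℕ} (hq : 1 ≤ q) (i j : ℤ) (d : Bool) :
    pc q ((i, j), d) ↔ 1 ≤ mm d j ∧ (q : ℤ) * mm d j ≤ -i := by
  have hq' : (1 : ℤ) ≤ q := by exact_mod_cast hq
  cases d
  · simp only [pc, rt, lf, cone, mm, Set.mem_ofPred_eq, Bool.false_eq_true, if_false]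
    constructor
    · rintro (⟨⟨a1, a2⟩, b1, b2⟩ | ⟨⟨a1, a2⟩, -, b⟩)
      · refine ⟨by omega, ?_⟩
        have : -1 - (j - 1) = -j := by ring
        rwa [this] at a2
      · refine ⟨by omega, ?_⟩
        have : -1 - (j - 1) = -j := by ring
        rwa [this] at a2
    · rintro ⟨a1, a2⟩
      have e : -1 - (j - 1) = -j := by ring
      by_cases hj : j = -1
      · right
        rw [e]
        exact ⟨⟨by omega, a2⟩, trivial, hj⟩
      · left
        rw [e]
        refine ⟨⟨by omega, a2⟩, by omega, ?_⟩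
        nlinarith
  · simp only [pc, rt, lf, cone, mm, Set.mem_ofPred_eq, if_true]
    constructor
    · rintro (⟨⟨a1, a2⟩, -⟩ | ⟨-, h, -⟩)
      · exact ⟨by omega, a2⟩
      · exact absurd h (by decide)
    · rintro ⟨a1, a2⟩
      left
      exact ⟨⟨by omega, a2⟩, by omega, by linarith⟩

/-- the coefficient changes between `e` and its translate -/
def Chg (q : ℕ) (v : Z2) (d : Bool) (P : Z2) : Prop := ¬ (pc q (sh v (P, d)) ↔ pc q (P, d))

theorem mm_succ (d : Bool) (j : ℤ) : mm d (j + 1) = mm d j - 1 := by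
  cases d <;> simp [mm] <;> ring

theorem mm_inj {d : Bool} {j j' : ℤ} (h : mm d j = mm d j') : j = j' := by
  cases d <;> simp [mm] at h <;> omega

theorem chg1 {q : ℕ} (hq : 1 ≤ q) (d : Bool) (i j : ℤ) (h : Chg q (1, 0) d (i, j)) :
    i = -((q : ℤ) * mm d j) := by
  unfold Chg sh at h
  simp only [Prod.mk_add_mk, add_zero] at h
  rw [pc_iff hq, pc_iff hq] at h
  by_contra hne
  apply h
  constructor
  · rintro ⟨a, b⟩
    exact ⟨a, by linarith⟩
  · rintro ⟨a, b⟩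
    refine ⟨a, ?_⟩
    omega

theorem chg2 {q : ℕ} (hq : 1 ≤ q) (d : Bool) (i j : ℤ) (h : Chg q (0, 1) d (i, j)) :
    mm d j = 1 ∨ ((q : ℤ) * (mm d j - 1) ≤ -i ∧ -i < (q : ℤ) * mm d j) := by
  have hq' : (1 : ℤ) ≤ q := by exact_mod_cast hq
  unfold Chg sh at h
  simp only [Prod.mk_add_mk, add_zero] at h
  rw [pc_iff hq, pc_iff hq, mm_succ] at h
  by_contra hne
  push Not at hne
  obtain ⟨h1, h2⟩ := hne
  apply h
  constructor
  · rintro ⟨a, b⟩
    exact ⟨by omega, h2 b⟩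
  · rintro ⟨a, b⟩
    refine ⟨by omega, ?_⟩
    nlinarith

open Classical in
theorem chg_sum {q : ℕ} (hq : 1 ≤ q) {v : Z2} (hv : IsU v) (d : Bool) (T : Finset Z2) :
    ∑ P ∈ T, (if Chg q v d P then 1 / (1 + R2 P) else 0) ≤ 2 * s0 := by
  have hq' : (1 : ℤ) ≤ q := by exact_mod_cast hq
  rcases hv with rfl | rfl
  · have h := sum_line_le Prod.snd (fun P => by unfold R2; nlinarith [sq_nonneg (P.1 : ℝ)])
      (Chg q (1, 0) d) 1 (fun j T' hT' => by
        refine card_le_one_of T' fun P hP Q hQ => ?_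
        obtain ⟨a, a'⟩ := hT' P hP
        obtain ⟨b, b'⟩ := hT' Q hQ
        have e1 := chg1 hq d P.1 P.2 a
        have e2 := chg1 hq d Q.1 Q.2 b
        refine Prod.ext ?_ (a'.trans b'.symm)
        rw [e1, e2, a', b']) T
    have := s0_nonneg
    push_cast at h
    linarith
  · have h := sum_line_le Prod.fst (fun P => by unfold R2; nlinarith [sq_nonneg (P.2 : ℝ)])
      (Chg q (0, 1) d) 2 (fun j T' hT' => by
        have c1 : (T'.filter fun P => mm d P.2 = 1).card ≤ 1 := by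
          refine card_le_one_of _ fun P hP Q hQ => ?_
          rw [mem_filter] at hP hQ
          have a' := (hT' P hP.1).2
          have b' := (hT' Q hQ.1).2
          exact Prod.ext (a'.trans b'.symm) (mm_inj (hP.2.trans hQ.2.symm))
        have c2 : (T'.filter fun P => ¬ mm d P.2 = 1).card ≤ 1 := by
          refine card_le_one_of _ fun P hP Q hQ => ?_
          rw [mem_filter] at hP hQ
          obtain ⟨a, a'⟩ := hT' P hP.1
          obtain ⟨b, b'⟩ := hT' Q hQ.1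
          obtain ⟨x1, x2⟩ := (chg2 hq d P.1 P.2 a).resolve_left hP.2
          obtain ⟨y1, y2⟩ := (chg2 hq d Q.1 Q.2 b).resolve_left hQ.2
          rw [a'] at x1 x2
          rw [b'] at y1 y2
          refine Prod.ext (a'.trans b'.symm) (mm_inj (d := d) ?_)
          have z1 : mm d P.2 - 1 < mm d Q.2 := by
            have : (q : ℤ) * (mm d P.2 - 1) < (q : ℤ) * mm d Q.2 := by linarith
            exact lt_of_mul_lt_mul_left this (by linarith)
          have z2 : mm d Q.2 - 1 < mm d P.2 := by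
            have : (q : ℤ) * (mm d Q.2 - 1) < (q : ℤ) * mm d P.2 := by linarith
            exact lt_of_mul_lt_mul_left this (by linarith)
          omega
        have c3 := Finset.card_filter_add_card_filter_not (s := T') (fun P => mm d P.2 = 1)
        omega) T
    push_cast at h
    exact h

end Vale.Agent.P159.T1.H376
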